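import Crest.Agent.R192.Iface

/-! R192/Gap: clustering of breakpoints is integrable. -/

set_option autoImplicit false

open MeasureTheory Set

noncomputable section

namespace Crest.Agent.R192

namespace Gap

/-- disjoint intervals `[v i, v i + s i)` starting in a window -/
theorem window {N : ℕ} {τ s v : Fin N → ℝ} {δ : ℝ} (hv : ∀ l, v l = ∑ j with j < l, τ j) (hδ : 0 ≤ δ)
    (h0 : ∀ i, 0 ≤ s i) (h1 : ∀ i, s i ≤ τ i) (h2 : ∀ i, s i ≤ δ) {a b : ℝ} (hab : a ≤ b) :
    ∑ i, (if a ≤ v i ∧ v i ≤ b then s i else 0) ≤ b - a + δ := by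
  set V : ℕ → ℝ := fun n => ∑ j : Fin N with j.val < n, τ j with hV
  set c : ℝ → ℝ := fun x => max a (min (b + δ) x) with hc
  have hcm : Monotone c := fun x y h => max_le_max le_rfl (min_le_min le_rfl h)
  have e1 : ∀ i : Fin N, V i = v i := fun i => (hv i).symm
  have e2 : ∀ i : Fin N, V (i + 1) = v i + τ i := by
    intro i
    have : (Finset.univ.filter fun j : Fin N => (j : ℕ) < i + 1) =
        insert i (Finset.univ.filter fun j : Fin N => j < i) := by
      ext j
      simp only [Finset.mem_filter, Finset.mem_univ, true_and, Finset.mem_insert, Fin.ext_iff, Fin.lt_def]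
      omega
    simp only [hV]
    rw [this, Finset.sum_insert (by simp), hv i, add_comm]
  calc _ ≤ ∑ i : Fin N, (c (V (i + 1)) - c (V i)) := by
        refine Finset.sum_le_sum fun i _ => ?_
        rw [e1, e2]
        have h3 : c (v i + s i) ≤ c (v i + τ i) := hcm (by linarith [h1 i])
        split_ifs with h
        · have h4 : c (v i + s i) = v i + s i := by
            simp only [hc]
            rw [min_eq_right (by linarith [h.2, h2 i]), max_eq_right (by linarith [h.1, h0 i])]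
          have h5 : c (v i) = v i := by
            simp only [hc]
            rw [min_eq_right (by linarith [h.2]), max_eq_right h.1]
          linarith
        · linarith [hcm (show v i ≤ v i + s i by linarith [h0 i])]
    _ = c (V N) - c (V 0) := by
        rw [Fin.sum_univ_eq_sum_range (fun i => c (V (i + 1)) - c (V i)) N,
          Finset.sum_range_sub fun i => c (V i)]
    _ ≤ _ := by
        have h3 : c (V N) ≤ b + δ := max_le (by linarith) (min_le_left _ _)
        have h4 : a ≤ c (V 0) := le_max_left _ _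
        linarith

theorem sum_cnt {N : ℕ} {τ s v : Fin N → ℝ} {δ : ℝ} (hv : ∀ l, v l = ∑ j with j < l, τ j) (hδ : 0 ≤ δ)
    (h0 : ∀ i, 0 ≤ s i) (h1 : ∀ i, s i ≤ τ i) (h2 : ∀ i, s i ≤ δ) {w : ℝ} (hw : 0 ≤ w) :
    ∑ i, s i * cnt w v i ≤ N * (3 * (2 * w + δ)) := by
  classical
  have e : ∀ i, s i * cnt w v i = ∑ l, if near w v i l then s i else 0 := by
    intro i
    rw [← Finset.sum_filter, Finset.sum_const, nsmul_eq_mul, mul_comm]
    rfl
  simp only [e]
  rw [Finset.sum_comm]
  refine (Finset.sum_le_card_nsmul _ _ (3 * (2 * w + δ)) fun l _ => ?_).trans (by simp)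
  have a1 := window hv hδ h0 h1 h2 (show v l - w ≤ v l + w by linarith)
  have a2 := window hv hδ h0 h1 h2 (show v l - 1 - w ≤ v l - 1 + w by linarith)
  have a3 := window hv hδ h0 h1 h2 (show v l + 1 - w ≤ v l + 1 + w by linarith)
  refine le_trans ?_ ((add_le_add (add_le_add a1 a2) a3).trans (le_of_eq (by ring)))
  rw [← Finset.sum_add_distrib, ← Finset.sum_add_distrib]
  refine Finset.sum_le_sum fun i _ => ?_
  have p : ∀ (q : Prop) [Decidable q], 0 ≤ if q then s i else 0 := fun q _ => by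
    split_ifs
    exacts [h0 i, le_rfl]
  by_cases h : near w v i l
  · rw [if_pos h]
    rcases h with h | h | h <;> obtain ⟨h3, h4⟩ := abs_le.1 h
    · rw [if_pos (show v l - w ≤ v i ∧ v i ≤ v l + w from ⟨by linarith, by linarith⟩)]
      exact le_add_of_le_of_nonneg (le_add_of_nonneg_right (p _)) (p _)
    · rw [if_pos (show v l - 1 - w ≤ v i ∧ v i ≤ v l - 1 + w from ⟨by linarith, by linarith⟩)]
      exact le_add_of_le_of_nonneg (le_add_of_nonneg_left (p _)) (p _)
    · rw [if_pos (show v l + 1 - w ≤ v i ∧ v i ≤ v l + 1 + w from ⟨by linarith, by linarith⟩)]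
      exact le_add_of_nonneg_left (add_nonneg (p _) (p _))
  · rw [if_neg h]
    exact add_nonneg (add_nonneg (p _) (p _)) (p _)

theorem pt_le {x u m : ℝ} (hx : 0 ≤ x) (hu : 0 < u) (hm : min u 1 ≤ 2 * m) :
    √x ≤ 10 * (1 + (√u)⁻¹) * Real.exp ((m * x / 43 - 1) / 2) := by
  have hr : 0 < (√u)⁻¹ := by positivity
  have h1 : 1 ≤ (1 + (√u)⁻¹) ^ 2 * min u 1 := by
    rcases le_total u 1 with h | h
    · have h2 : (√u)⁻¹ ^ 2 * u = 1 := by rw [inv_pow, Real.sq_sqrt hu.le, inv_mul_cancel₀ hu.ne']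
      rw [min_eq_left h]
      nlinarith [mul_pos hr hu]
    · rw [min_eq_right h]
      nlinarith
  have h3 : Real.exp ((m * x / 43 - 1) / 2) ^ 2 = Real.exp (m * x / 43 - 1) := by
    rw [← Real.exp_nat_mul]; congr 1; push_cast; ring
  have h4 := Real.add_one_le_exp (m * x / 43 - 1)
  refine Real.sqrt_le_iff.2 ⟨by positivity, ?_⟩
  rw [mul_pow, mul_pow, h3]
  generalize (1 + (√u)⁻¹) ^ 2 = A at h1
  have hm0 : 0 < min u 1 := lt_min hu one_pos
  have hA : 0 < A := by by_contra h; nlinarith [not_lt.1 h]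
  have h5 : 1 ≤ 2 * (A * m) := by nlinarith
  nlinarith [mul_le_mul_of_nonneg_left h4 hA.le, mul_le_mul_of_nonneg_left h5 hx]

theorem prod_le {N : ℕ} (hN : 1 ≤ N) {w₁ w₂ T₁ T₂ : ℝ} (h1 : 0 ≤ w₁) (h2 : 0 ≤ w₂) (h3 : 1 ≤ T₁) (h4 : 1 ≤ T₂)
    (h5 : w₁ * N ≤ 3 * T₁) (h6 : w₂ * N ≤ 3 * T₂) {t : Fin N → ℝ} (ht : t ∈ shell N) :
    ∏ i, √(1 + cnt w₁ (uu t) i / T₁ + cnt w₂ (uu t) i / T₂) ≤ 10 ^ N * ∏ i, (1 + (√(N * t i))⁻¹) := by
  obtain ⟨t0, t1, t2⟩ := ht
  have hN' : (0 : ℝ) < N := by exact_mod_cast hN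
  set L := ∑ i, t i with hL
  set s : Fin N → ℝ := fun i => min (t i / L) (1 / N) with hs
  have hv : ∀ l, uu t l = ∑ j with j < l, t j / L := fun l => Finset.sum_div _ _ _
  have s0 : ∀ i, 0 ≤ s i := fun i => le_min (div_nonneg (t0 i).le (by linarith)) (by positivity)
  have s1 : ∀ i, s i ≤ t i / L := fun i => min_le_left _ _
  have s2 : ∀ i, s i ≤ 1 / N := fun i => min_le_right _ _
  have key : ∀ {w T : ℝ}, 0 ≤ w → 1 ≤ T → w * N ≤ 3 * T → ∑ i, s i * (cnt w (uu t) i / T) ≤ 21 := by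
    intro w T hw hT hwT
    have h7 := sum_cnt hv (by positivity) s0 s1 s2 hw
    have h8 : (N : ℝ) * (3 * (2 * w + 1 / N)) = 6 * (w * N) + 3 := by field_simp; ring
    simp only [← mul_div_assoc]
    rw [← Finset.sum_div, div_le_iff₀ (by linarith)]
    linarith
  have s3 : ∑ i, s i ≤ 1 := (Finset.sum_le_card_nsmul _ _ _ fun i _ => s2 i).trans (by simp [hN'.ne'])
  set x : Fin N → ℝ := fun i => 1 + cnt w₁ (uu t) i / T₁ + cnt w₂ (uu t) i / T₂ with hx
  have x0 : ∀ i, 0 ≤ x i := fun i => by simp only [hx]; positivity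
  have s4 : ∑ i, s i * x i ≤ 43 := by
    simp only [hx, mul_add, mul_one, Finset.sum_add_distrib]
    linarith [key h1 h3 h5, key h2 h4 h6]
  have s5 : ∀ i, min (N * t i) 1 ≤ 2 * (N * s i) := by
    intro i
    simp only [hs]
    rcases le_total (t i / L) (1 / N) with h | h
    · have h7 : t i / 2 ≤ t i / L := div_le_div_of_nonneg_left (t0 i).le (by linarith) t2
      rw [min_eq_left h]
      nlinarith [min_le_left (N * t i) 1]
    · rw [min_eq_right h, mul_one_div_cancel hN'.ne']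
      linarith [min_le_right (N * t i) 1]
  calc ∏ i, √(x i) ≤ ∏ i, (10 * (1 + (√(N * t i))⁻¹) * Real.exp ((N * s i * x i / 43 - 1) / 2)) :=
        Finset.prod_le_prod (fun i _ => Real.sqrt_nonneg _) fun i _ =>
          pt_le (x0 i) (mul_pos hN' (t0 i)) (s5 i)
    _ = 10 ^ N * (∏ i, (1 + (√(N * t i))⁻¹)) * Real.exp (∑ i, (N * s i * x i / 43 - 1) / 2) := by
        rw [Finset.prod_mul_distrib, Finset.prod_mul_distrib, Real.exp_sum]
        simp
    _ ≤ _ := by
        refine mul_le_of_le_one_right (by positivity) (Real.exp_le_one_iff.2 ?_)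
        have e : ∑ i, (N * s i * x i / 43 - 1) / 2 = N * ((∑ i, s i * x i) / 43 - 1) / 2 := by
          rw [← Finset.sum_div, Finset.sum_sub_distrib, ← Finset.sum_div]
          simp only [mul_assoc, ← Finset.mul_sum]
          simp only [Finset.sum_const, Finset.card_univ, Fintype.card_fin, nsmul_eq_mul]
          ring
        rw [e]
        nlinarith

/-- the one-dimensional majorant -/
def maj (u : ℝ) : ℝ := Real.exp (-u) * (1 + (√u)⁻¹)

theorem maj_int : IntegrableOn maj (Ioi 0) ∧ ∫ u in Ioi 0, maj u ≤ 3 := by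
  have e : EqOn (fun u => Real.exp (-u) + Real.exp (-u) * u ^ ((1 / 2 : ℝ) - 1)) maj (Ioi 0) := by
    intro u hu
    simp only [maj]
    rw [show (1 / 2 : ℝ) - 1 = -(1 / 2) by norm_num, Real.rpow_neg (le_of_lt hu), ← Real.sqrt_eq_rpow]
    ring
  have h1 := integrableOn_exp_neg_Ioi 0
  have h2 := Real.GammaIntegral_convergent (s := 1 / 2) one_half_pos
  refine ⟨(h1.add h2).congr_fun e measurableSet_Ioi, ?_⟩
  rw [← setIntegral_congr_fun measurableSet_Ioi e, integral_add h1 h2, integral_exp_neg_Ioi_zero,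
    ← Real.Gamma_eq_integral one_half_pos, Real.Gamma_one_half_eq]
  have : √Real.pi ≤ 2 := Real.sqrt_le_iff.2 ⟨by norm_num, by linarith [Real.pi_lt_four]⟩
  linarith

theorem measurableSet_shell (N : ℕ) : MeasurableSet (shell N) := by
  unfold shell
  measurability

theorem int_le {N : ℕ} (hN : 1 ≤ N) :
    IntegrableOn (fun t : Fin N → ℝ => ∏ i, (1 + (√(N * t i))⁻¹)) (shell N) ∧
      ∫ t in shell N, ∏ i, (1 + (√(N * t i))⁻¹) ≤ (30 / N) ^ N := by
  have hN' : (0 : ℝ) < N := by exact_mod_cast hN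
  set f : ℝ → ℝ := (Ioi 0).indicator fun u => Real.exp 2 * maj (N * u) with hf
  have f0 : ∀ u, 0 ≤ f u := fun u => indicator_nonneg (fun u _ => by unfold maj; positivity) u
  have hi : IntegrableOn (fun u : ℝ => maj (N * u)) (Ioi 0) :=
    (integrableOn_Ioi_comp_mul_left_iff maj 0 hN').2 (by simpa using maj_int.1)
  have f1 : Integrable f := (integrable_indicator_iff measurableSet_Ioi).2 (hi.const_mul _)
  have f2 : ∫ u, f u ≤ 30 / N := by
    rw [hf, integral_indicator measurableSet_Ioi, integral_const_mul, integral_comp_mul_left_Ioi maj 0 hN',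
      mul_zero, smul_eq_mul, le_div_iff₀ hN']
    have h1 : Real.exp 2 ≤ 9 := by
      rw [show (2 : ℝ) = 1 + 1 by norm_num, Real.exp_add]
      nlinarith [Real.exp_one_lt_d9, Real.exp_pos 1]
    have h2 : Real.exp 2 * ((N : ℝ)⁻¹ * ∫ u in Ioi 0, maj u) * N = Real.exp 2 * ∫ u in Ioi 0, maj u := by
      field_simp
    rw [h2]
    nlinarith [maj_int.2, Real.exp_pos 2]
  have F1 : Integrable fun t : Fin N → ℝ => ∏ i, f (t i) :=
    Integrable.fintype_prod (f := fun _ : Fin N => f) fun _ => f1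
  have hb : ∀ t ∈ shell N, ∏ i, (1 + (√(N * t i))⁻¹) ≤ ∏ i, f (t i) := by
    rintro t ⟨t0, -, t2⟩
    have e : ∀ i, f (t i) = Real.exp (2 - N * t i) * (1 + (√(N * t i))⁻¹) := fun i => by
      rw [hf, indicator_of_mem (show t i ∈ Ioi 0 from t0 i), maj, sub_eq_add_neg, Real.exp_add, mul_assoc]
    simp only [e]
    rw [Finset.prod_mul_distrib, ← Real.exp_sum]
    refine le_mul_of_one_le_left (by positivity) (Real.one_le_exp ?_)
    rw [Finset.sum_sub_distrib, ← Finset.mul_sum]
    simp only [Finset.sum_const, Finset.card_univ, Fintype.card_fin, nsmul_eq_mul]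
    nlinarith
  have G1 : IntegrableOn (fun t : Fin N → ℝ => ∏ i, (1 + (√(N * t i))⁻¹)) (shell N) := by
    refine F1.integrableOn.mono' (Measurable.aestronglyMeasurable (by fun_prop)) ?_
    refine ae_restrict_of_forall_mem (measurableSet_shell N) fun t ht => ?_
    rw [Real.norm_of_nonneg (by positivity)]
    exact hb t ht
  refine ⟨G1, (setIntegral_mono_on G1 F1.integrableOn (measurableSet_shell N) hb).trans
    ((setIntegral_le_integral F1 (ae_of_all _ fun t => Finset.prod_nonneg fun i _ => f0 _)).trans ?_)⟩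
  rw [integral_fintype_prod_volume_eq_pow, Fintype.card_fin]
  exact pow_le_pow_left₀ (integral_nonneg f0) f2 N

end Gap

theorem stGap : StGap := fun _ hN =>
  ⟨fun _ _ _ _ h1 h2 h3 h4 h5 h6 _ ht => Gap.prod_le hN h1 h2 h3 h4 h5 h6 ht, Gap.int_le hN⟩

end Crest.Agent.R192
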